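import Vale.Agent.P004G.H392.MLQ

/-!
# P004H: multiplicative reduction, and the invariance of Mathlib's local polynomial under
isomorphisms
-/

open WeierstrassCurve IsDedekindDomain NumberField Polynomial

namespace Vale.Agent.P004H.H641

open P004G P004G.ML P004G.ML.M1

/-! ### the tangent directions at the node -/

section node

variable {F : Type*} [Field F]

/-- the quadratic polynomial of the tangent directions at the node has a root -/
def SplitNode (V : WeierstrassCurve F) : Prop :=
  ∃ T : F, V.c₄ * T ^ 2 + V.a₁ * V.c₄ * T - (54 * V.b₆ - 3 * V.b₂ * V.b₄ + V.a₂ * V.c₄) = 0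

lemma node_smul (V : WeierstrassCurve F) (C : VariableChange F) (T : F) :
    (C • V).c₄ * T ^ 2 + (C • V).a₁ * (C • V).c₄ * T -
      (54 * (C • V).b₆ - 3 * (C • V).b₂ * (C • V).b₄ + (C • V).a₂ * (C • V).c₄) =
    ((C.u⁻¹ : Fˣ) : F) ^ 6 * (V.c₄ * ((C.u : F) * T + C.s) ^ 2 +
      V.a₁ * V.c₄ * ((C.u : F) * T + C.s) -
      (54 * V.b₆ - 3 * V.b₂ * V.b₄ + V.a₂ * V.c₄)) := by
  have hu : (C.u : F) ≠ 0 := C.u.ne_zero
  rw [variableChange_c₄, variableChange_a₁, variableChange_a₂, variableChange_b₂,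
    variableChange_b₄, variableChange_b₆, Units.val_inv_eq_inv_val]
  simp only [WeierstrassCurve.c₄]
  field_simp
  ring

lemma splitNode_smul (V : WeierstrassCurve F) (C : VariableChange F) :
    SplitNode (C • V) ↔ SplitNode V := by
  have hu : (C.u : F) ≠ 0 := C.u.ne_zero
  have hui : ((C.u⁻¹ : Fˣ) : F) ≠ 0 := (C.u⁻¹).ne_zero
  constructor
  · rintro ⟨T, hT⟩
    rw [node_smul] at hT
    exact ⟨_, (mul_eq_zero.1 hT).resolve_left (pow_ne_zero _ hui)⟩
  · rintro ⟨T, hT⟩
    refine ⟨(C.u : F)⁻¹ * (T - C.s), ?_⟩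
    rw [node_smul]
    have e : (C.u : F) * ((C.u : F)⁻¹ * (T - C.s)) + C.s = T := by
      rw [← mul_assoc, mul_inv_cancel₀ hu]; ring
    rw [e, hT, mul_zero]

lemma splits_iff (V : WeierstrassCurve F) (hc : V.c₄ ≠ 0) :
    Splits (C V.c₄ * X ^ 2 + C (V.a₁ * V.c₄) * X -
      C (54 * V.b₆ - 3 * V.b₂ * V.b₄ + V.a₂ * V.c₄)) ↔ SplitNode V := by
  have hd : (C V.c₄ * X ^ 2 + C (V.a₁ * V.c₄) * X -
      C (54 * V.b₆ - 3 * V.b₂ * V.b₄ + V.a₂ * V.c₄)).natDegree = 2 := by
    have e : C V.c₄ * X ^ 2 + C (V.a₁ * V.c₄) * X -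
      C (54 * V.b₆ - 3 * V.b₂ * V.b₄ + V.a₂ * V.c₄) =
      C V.c₄ * X ^ 2 + C (V.a₁ * V.c₄) * X +
      C (-(54 * V.b₆ - 3 * V.b₂ * V.b₄ + V.a₂ * V.c₄)) := by
      rw [C_neg, sub_eq_add_neg]
    rw [e]
    exact natDegree_quadratic hc
  constructor
  · intro h
    obtain ⟨x, hx⟩ := h.exists_eval_eq_zero (by
      intro h0
      rw [natDegree_eq_of_degree_eq_some h0] at hd
      norm_num at hd)
    refine ⟨x, ?_⟩
    simpa using hx
  · rintro ⟨x, hx⟩
    refine Splits.of_natDegree_eq_two hd (x := x) ?_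
    simpa using hx

end node

section dvr

open IsDiscreteValuationRing IsLocalRing IsDedekindDomain.HeightOneSpectrum

variable {R : Type} [CommRing R] [IsDomain R] [IsDiscreteValuationRing R] {K : Type} [Field K]
  [Algebra R K] [IsFractionRing R K]

/-- a model with unit `c₄` is minimal -/
lemma unit_c₄_model (W : WeierstrassCurve K) (C : VariableChange K) (W₁ : WeierstrassCurve R)
    (h : C • W = W₁.map (algebraMap R K)) (hc : IsUnit W₁.c₄) (hΔ : W₁.Δ ≠ 0) :
    ∃ D' : VariableChange R, D' • W₁ = Im R W := by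
  have hinj : Function.Injective (algebraMap R K) := IsFractionRing.injective R K
  have hmin : IsMinimal R (W.minimal R) := inferInstance
  have hC₀ : W.minimal R = (W.exists_isMinimal R).choose • W := rfl
  set C₀ : VariableChange K := (W.exists_isMinimal R).choose with hC₀'
  set D : VariableChange K := C₀ * C⁻¹ with hD
  have hDW : D • (W₁.map (algebraMap R K)) = W.minimal R := by
    rw [hD, ← h, mul_smul, inv_smul_smul, hC₀]
  have hDW' : D⁻¹ • W.minimal R = W₁.map (algebraMap R K) := by
    rw [← hDW, inv_smul_smul]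
  have hint : (D⁻¹ • W.minimal R).IsIntegral R := ⟨W₁, hDW'⟩
  have hmax := hmin.val_Δ_maximal.2 (j := D⁻¹) hint
  have hge : valuation_Δ_aux R (D⁻¹ • W.minimal R) ≤ valuation_Δ_aux R (W.minimal R) := by
    rcases le_total (valuation_Δ_aux R (D⁻¹ • W.minimal R)) (valuation_Δ_aux R (W.minimal R))
      with h1 | h1
    · exact h1
    · simpa using hmax (by simpa using h1)
  have hge' : valuation K (maximalIdeal R) (algebraMap R K W₁.Δ) ≤
      valuation K (maximalIdeal R) (algebraMap R K (Im R W).Δ) := by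
    rw [← val_Δ, ← WeierstrassCurve.map_Δ, ← hDW', ← valuation_Δ_aux_eq_of_isIntegral,
      ← valuation_Δ_aux_eq_of_isIntegral]
    exact_mod_cast hge
  have hu0 : (D.u : K) ≠ 0 := D.u.ne_zero
  have hIm : (Im R W).map (algebraMap R K) = W.minimal R :=
    baseChange_integralModel_eq R (W.minimal R)
  -- `u⁻¹` is integral
  have e4 := congrArg WeierstrassCurve.c₄ hDW
  rw [← hIm, variableChange_c₄, map_c₄, map_c₄, Units.val_inv_eq_inv_val] at e4
  obtain ⟨w, hw⟩ := hc
  obtain ⟨b, hb⟩ : ∃ b : R, algebraMap R K b = (D.u : K)⁻¹ :=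
    MQ.u_int (n := 4) (by norm_num) _ (w := W₁.c₄) (c := (Im R W).c₄) ⟨w, hw⟩ e4
  have e12 := congrArg WeierstrassCurve.Δ hDW
  rw [← hIm, variableChange_Δ, map_Δ, map_Δ, Units.val_inv_eq_inv_val, ← hb] at e12
  have hbu : IsUnit b := by
    rw [← val_eq_one_iff (K := K)]
    have hv1 : valuation K (maximalIdeal R) (algebraMap R K b) ≤ 1 := valuation_le_one _ _
    refine le_antisymm hv1 ?_
    by_contra hlt
    rw [not_le] at hlt
    rw [← e12, map_mul, map_pow] at hge'
    have hne : valuation K (maximalIdeal R) (algebraMap R K W₁.Δ) ≠ 0 := by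
      rw [Ne, Valuation.zero_iff, map_eq_zero_iff _ hinj]
      exact hΔ
    have h1 : valuation K (maximalIdeal R) (algebraMap R K b) ^ 12 < 1 :=
      pow_lt_one₀ zero_le hlt (by norm_num)
    have h2 : valuation K (maximalIdeal R) (algebraMap R K b) ^ 12 *
        valuation K (maximalIdeal R) (algebraMap R K W₁.Δ) <
        1 * valuation K (maximalIdeal R) (algebraMap R K W₁.Δ) :=
      mul_lt_mul_of_pos_right h1 (zero_lt_iff.2 hne)
    rw [one_mul] at h2
    exact absurd hge' (not_le.2 h2)
  obtain ⟨β, hβ⟩ := hbu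
  refine lift_change W₁ (Im R W) D (hDW.trans hIm.symm) β⁻¹ ?_
  have h1 : algebraMap R K (β : R) * algebraMap R K ((β⁻¹ : Rˣ) : R) = 1 := by
    rw [← map_mul, Units.mul_inv, map_one]
  rw [hβ, hb] at h1
  field_simp at h1
  exact h1

open Classical in
/-- **multiplicative reduction** -/
theorem locMult (W : WeierstrassCurve K) (C : VariableChange K) (W₁ : WeierstrassCurve R)
    (h : C • W = W₁.map (algebraMap R K)) (hc : IsUnit W₁.c₄) (hΔ : W₁.Δ ≠ 0)
    (hΔ' : ¬ IsUnit W₁.Δ) :
    W.localPolynomial R = if SplitNode (W₁.map (residue R)) then 1 - X else 1 + X := by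
  obtain ⟨D', hD'⟩ := unit_c₄_model W C W₁ h hc hΔ
  have hΔI : ¬ IsUnit (Im R W).Δ := by
    rw [← hD', variableChange_Δ]
    intro h1
    exact hΔ' (isUnit_of_mul_isUnit_right h1)
  have hcI : IsUnit (Im R W).c₄ := by
    rw [← hD', variableChange_c₄]
    exact ((D'.u⁻¹).isUnit.pow 4).mul hc
  have hmult : (W.minimal R).HasMultiplicativeReduction R := by
    rw [hasMultiplicativeReduction_iff, val_c₄, val_eq_one_iff]
    refine ⟨inferInstance, ?_, hcI⟩
    rw [val_Δ]
    refine lt_of_le_of_ne (valuation_le_one _ _) ?_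
    rw [Ne, val_eq_one_iff]
    exact hΔI
  have hred : (Im R W).map (residue R) = (D'.map (residue R)) • (W₁.map (residue R)) := by
    rw [← hD', map_variableChange]
  have hc' : ((Im R W).map (residue R)).c₄ ≠ 0 := by
    rw [map_c₄, Ne, residue_eq_zero_iff, mem_maximalIdeal, mem_nonunits_iff, not_not]
    exact hcI
  have hsplit : (W.minimal R).HasSplitMultiplicativeReduction R ↔
      SplitNode (W₁.map (residue R)) := by
    rw [← splitNode_smul _ (D'.map (residue R)), ← hred, ← splits_iff _ hc',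
      hasSplitMultiplicativeReduction_iff]
    have e : (Polynomial.map (algebraMap R (ResidueField R))
        (Polynomial.C ((W.minimal R).integralModel R).c₄ * X ^ 2 +
          Polynomial.C (((W.minimal R).integralModel R).a₁ *
            ((W.minimal R).integralModel R).c₄) * X -
          Polynomial.C (54 * ((W.minimal R).integralModel R).b₆ -
            3 * ((W.minimal R).integralModel R).b₂ * ((W.minimal R).integralModel R).b₄ +
            ((W.minimal R).integralModel R).a₂ * ((W.minimal R).integralModel R).c₄))) =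
        Polynomial.C ((Im R W).map (residue R)).c₄ * X ^ 2 +
          Polynomial.C (((Im R W).map (residue R)).a₁ * ((Im R W).map (residue R)).c₄) * X -
          Polynomial.C (54 * ((Im R W).map (residue R)).b₆ -
            3 * ((Im R W).map (residue R)).b₂ * ((Im R W).map (residue R)).b₄ +
            ((Im R W).map (residue R)).a₂ * ((Im R W).map (residue R)).c₄) := by
      simp only [Polynomial.map_sub, Polynomial.map_add, Polynomial.map_mul, Polynomial.map_pow,
        Polynomial.map_X, Polynomial.map_C, WeierstrassCurve.map_c₄, WeierstrassCurve.map_a₁,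
        WeierstrassCurve.map_a₂, WeierstrassCurve.map_b₂, WeierstrassCurve.map_b₄,
        WeierstrassCurve.map_b₆, ← ResidueField.algebraMap_eq, map_mul, map_add, map_sub,
        map_ofNat, Polynomial.map_ofNat, Im]
    rw [← e]
    exact ⟨fun h1 => h1.2, fun h1 => ⟨hmult, h1⟩⟩
  rw [localPolynomial, if_neg (fun hg => hΔI ((good_iff W).1 hg))]
  simp only [hsplit, hmult, if_true]

end dvr

end Vale.Agent.P004H.H641
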