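import Vale.Agent.P004H.H641.Loc2
import Vale.Agent.P004H.H742.L7

/-!
# P004H: the local statement at `2`
-/

namespace Vale.Agent.P004H.H641

open P004G P004G.ML Vale.Agent.P004H.H742

theorem st7_2 : St7 2 :=
  st7_two (fun _ _ h => loc2_good h) (fun _ hF h => loc2_add hF h)

end Vale.Agent.P004H.H641
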