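import Vale.Agent.P004H.H641.Par
import Vale.Agent.P004H.H871.FE11
import Vale.Agent.P004H.H641.St2

/-!
# P004H: assembly of `BaseK` (Hasse's bound and functional equations of the twists of `X_0(11)`)
-/

namespace Vale.Agent.P004H.H641

open P004G P004G.ML Vale.Agent.P004H.H742
open scoped NumberTheorySymbols

lemma root_eq {D : ℤ} (hD : D ≠ 0) : H871.root D = kap D := by
  unfold H871.root kap
  have hs : (if 0 < D then (1 : ℤ) else -1) = D.sign := by
    split_ifs with h
    · exact (Int.sign_eq_one_of_pos h).symm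
    · exact (Int.sign_eq_neg_one_of_neg (by omega)).symm
  rw [hs]
  split_ifs with h11 <;> ring

lemma kron_abs (D : ℤ) {p : ℕ} (hp : p.Prime) : (kron D p) ^ 2 ≤ 1 := by
  rcases hp.eq_two_or_odd with rfl | h
  · have h1 := kron_two_pow D 1
    rw [pow_one, pow_one] at h1
    rw [h1]
    unfold k2
    split_ifs <;> norm_num
  · rw [kron_odd D h]
    rcases jacobiSym.trichotomy D p with h | h | h <;> rw [h] <;> norm_num

/-- **the assembly** -/
theorem baseK_of (hL : ∀ D : ℤ, Fund1 D → ∀ n, H742.LT D n = H792.a n * kron D n)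
    (hA : ∀ p : ℕ, p.Prime → (H792.a p) ^ 2 ≤ 4 * p) : BaseK where
  hasse D hD p hp := by
    rw [hL D hD p, mul_pow]
    have h1 := hA p hp
    have h2 := kron_abs D hp
    have h3 : 0 ≤ (H792.a p) ^ 2 := sq_nonneg _
    nlinarith
  fe D hD := by
    refine ⟨H871.cond D, ?_, H871.cond_le D, ?_⟩
    · unfold H871.cond
      have := sq_nonneg (D : ℝ)
      split_ifs <;> linarith
    rw [← root_eq (Fund1_ne hD)]
    exact H871.fet hD (hL D hD)

/-- Hasse's bound from the point counts -/
theorem hasse_of (hco : Co H792.a)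
    (hH : ∀ p : ℕ, p.Prime → 5 ≤ p → p ≠ 11 → ((p : ℤ) - cnt p) ^ 2 ≤ 4 * p) :
    ∀ p : ℕ, p.Prime → (H792.a p) ^ 2 ≤ 4 * p := by
  intro p hp
  rcases eq_or_ne p 11 with rfl | h11
  · have := hco.el 1
    rw [pow_one] at this
    rw [this]; norm_num
  rw [hco.tr p hp h11]
  rcases eq_or_ne p 2 with rfl | h2
  · rw [cnt_two]; norm_num
  rcases eq_or_ne p 3 with rfl | h3
  · rw [cnt_three]; norm_num
  have h5 : 5 ≤ p := by
    have := hp.two_le
    rcases eq_or_ne p 4 with rfl | h4
    · exact absurd hp (by norm_num)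
    · omega
  exact hH p hp h5 h11

/-- `BaseK` from the modularity `Co a`, the local statements and Hasse's bound -/
theorem baseK (hco : Co H792.a) (h3 : St7 3) (h11 : St7 11)
    (hH : ∀ p : ℕ, p.Prime → 5 ≤ p → p ≠ 11 → ((p : ℤ) - cnt p) ^ 2 ≤ 4 * p) : BaseK :=
  baseK_of (fun D hD n => all st7_2 h3 h11 H792.a hco D hD n) (hasse_of hco hH)

end Vale.Agent.P004H.H641
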