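import Vale.Agent.P004H.H641.Mult
import Vale.Agent.P004G.H392.ML2
import Vale.Agent.P004G.H871.MLS2

/-!
# P004H: Mathlib's `L`-function of an elliptic curve over `ℚ` is invariant under isomorphisms
-/

open WeierstrassCurve IsDedekindDomain NumberField Polynomial

namespace Vale.Agent.P004H.H641

open P004G P004G.ML P004G.ML.M1

section dvr

open IsDiscreteValuationRing IsLocalRing IsDedekindDomain.HeightOneSpectrum

variable {p : ℕ} {R : Type} [CommRing R] [IsDomain R] [IsDiscreteValuationRing R] {K : Type}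
  [Field K] [Algebra R K] [IsFractionRing R K]

/-- **invariance of the local polynomial** -/
theorem locPoly_smul (hL : Loc p R) (W : WeierstrassCurve K) (hW : W.Δ ≠ 0)
    (C : VariableChange K) : (C • W).localPolynomial R = W.localPolynomial R := by
  classical
  obtain ⟨C₁, hC₁⟩ := Im_map (R := R) W
  set I := Im R W with hI
  have hC₂ : (C₁ * C⁻¹) • (C • W) = I.map (algebraMap R K) := by
    rw [mul_smul, inv_smul_smul, hC₁]
  have hIΔ : I.Δ ≠ 0 := by
    intro h0
    have h1 := congrArg WeierstrassCurve.Δ hC₁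
    rw [variableChange_Δ, WeierstrassCurve.map_Δ, h0, map_zero] at h1
    rcases mul_eq_zero.1 h1 with h2 | h2
    · exact (pow_ne_zero 12 (C₁.u⁻¹).ne_zero) h2
    · exact hW h2
  by_cases h1 : IsUnit I.Δ
  · rw [pfLocGood p R K hL _ _ _ hC₁ h1, pfLocGood p R K hL _ _ _ hC₂ h1]
  by_cases h2 : IsUnit I.c₄
  · rw [locMult _ _ _ hC₁ h2 hIΔ h1, locMult _ _ _ hC₂ h2 hIΔ h1]
  · have key : ∀ (V : VariableChange K) (W₁ : WeierstrassCurve R),
        V • W = W₁.map (algebraMap R K) → ¬ IsUnit W₁.Δ ∧ ¬ IsUnit W₁.c₄ := by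
      intro V W₁ hV
      have hΔ1 : W₁.Δ ≠ 0 := by
        intro h0
        have h1 := congrArg WeierstrassCurve.Δ hV
        rw [variableChange_Δ, WeierstrassCurve.map_Δ, h0, map_zero] at h1
        rcases mul_eq_zero.1 h1 with h2 | h2
        · exact (pow_ne_zero 12 (V.u⁻¹).ne_zero) h2
        · exact hW h2
      constructor
      · intro h3
        exact h1 (unit_model W V W₁ hV h3).1
      · intro h3
        obtain ⟨D', hD'⟩ := unit_c₄_model W V W₁ hV h3 hΔ1
        apply h2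
        rw [hI, ← hD', variableChange_c₄]
        exact ((D'.u⁻¹).isUnit.pow 4).mul h3
    have key' : ∀ (V : VariableChange K) (W₁ : WeierstrassCurve R),
        V • (C • W) = W₁.map (algebraMap R K) → ¬ IsUnit W₁.Δ ∧ ¬ IsUnit W₁.c₄ := by
      intro V W₁ hV
      apply key (V * C) W₁
      rw [mul_smul, hV]
    rw [pfLocAdd p R K hL _ key, pfLocAdd p R K hL _ key']

end dvr

/-- two multiplicative sequences with the same local polynomials -/
lemma LA_congr {a b a' b' : ℤ} (h : ∀ (p : ℕ) (hp : p.Prime), locP a b p hp = locP a' b' p hp)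
    (n : ℕ) : LA a b n = LA a' b' n := by
  obtain ⟨e0, e1, e2, -⟩ := M2.pfEul a b
  obtain ⟨f0, f1, f2, -⟩ := M2.pfEul a' b'
  refine MS.mult_eq (by rw [e0, f0]) (by rw [e1, f1]) e2 f2 ?_ n
  intro p hp k
  rw [M2.LA_pow a b p hp, M2.LA_pow a' b' p hp, h p hp]

/-- **`y² = x³ + a x + b` and `y² = x³ + a u⁴ x + b u⁶` have the same `L`-function** -/
theorem LA_scale {a b u : ℤ} (hd : 4 * a ^ 3 + 27 * b ^ 2 ≠ 0) (hu : u ≠ 0) (n : ℕ) :
    LA (a * u ^ 4) (b * u ^ 6) n = LA a b n := by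
  apply LA_congr
  intro p hp
  have hL := M2.pfLoc p hp
  unfold locP
  rw [MG.Ec_map, MG.Ec_map]
  have huK : ((u : ℤ) : (pl p hp).adicCompletion ℚ) ≠ 0 := by
    have := MS.int_ne (K := (pl p hp).adicCompletion ℚ) hL hu
    rwa [map_intCast] at this
  have hΔ : (MG.Ew ((pl p hp).adicCompletion ℚ) a b).Δ ≠ 0 := by
    rw [MG.Ew_Δ]
    have := MS.int_ne (K := (pl p hp).adicCompletion ℚ) hL
      (n := -16 * (4 * a ^ 3 + 27 * b ^ 2)) (mul_ne_zero (by norm_num) hd)
    rwa [map_intCast] at this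
  rw [← locPoly_smul hL _ hΔ ⟨(Units.mk0 _ huK)⁻¹, 0, 0, 0⟩]
  congr 1
  ext
  · simp [variableChange_a₁, MG.Ew]
  · simp [variableChange_a₂, MG.Ew]
  · simp [variableChange_a₃, MG.Ew]
  · simp only [variableChange_a₄, MG.Ew, inv_inv, Units.val_mk0]
    push_cast
    ring_nf
  · simp only [variableChange_a₆, MG.Ew, inv_inv, Units.val_mk0]
    push_cast
    ring_nf

end Vale.Agent.P004H.H641
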