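import Vale.Agent.P004G.H392.MLQ
import Vale.Agent.P004G.H871.MLS2
import Vale.Agent.P004G.H3.MG2

/-!
# P004H: the local factor at `2` of the quadratic twists of `X_0(11)`
-/

open WeierstrassCurve IsDedekindDomain NumberField Polynomial

namespace Vale.Agent.P004H.H641

open P004G P004G.ML P004G.ML.MG P004G.MS

section local_ring

variable {R : Type} [CommRing R] [IsDomain R] [IsDiscreteValuationRing R]
  {K : Type} [Field K] [Algebra R K] [IsFractionRing R K]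

/-- the curve `y² = x³ - 13392 D² x - 1080432 D³` over `K` -/
def WK (K : Type) [Field K] (D : ℤ) : WeierstrassCurve K :=
  Ew K (-13392 * D ^ 2) (-1080432 * D ^ 3)

lemma WK_c₄ (D : ℤ) : (WK K D).c₄ = 642816 * (D : K) ^ 2 := by
  simp only [WK, Ew, WeierstrassCurve.c₄, WeierstrassCurve.b₂, WeierstrassCurve.b₄]
  push_cast
  ring

lemma WK_c₆ (D : ℤ) : (WK K D).c₆ = 933493248 * (D : K) ^ 3 := by
  simp only [WK, Ew, WeierstrassCurve.c₆, WeierstrassCurve.b₂, WeierstrassCurve.b₄,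
    WeierstrassCurve.b₆]
  push_cast
  ring

lemma WK_Δ (D : ℤ) : (WK K D).Δ = -(2176782336 * 161051) * (D : K) ^ 6 := by
  simp only [WK, Ew, WeierstrassCurve.Δ, WeierstrassCurve.b₂, WeierstrassCurve.b₄,
    WeierstrassCurve.b₆, WeierstrassCurve.b₈]
  push_cast
  ring

/-- the good model at `2` -/
lemma model_good2 {p : ℕ} (h : Loc p R) (D e : ℤ) (he : 79 * D ^ 3 + 1 = 4 * e) :
    ∃ C : VariableChange K, C • WK K D =
      (⟨0, ((-D : ℤ) : R), 1, ((-10 * D ^ 2 : ℤ) : R), ((-e : ℤ) : R)⟩ :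
        WeierstrassCurve R).map (algebraMap R K) := by
  have h6 : (6 : K) ≠ 0 := by
    have := int_ne (K := K) h (n := 6) (by norm_num)
    rw [map_intCast] at this
    exact_mod_cast this
  have h4 : (4 : K) ≠ 0 := by
    have := int_ne (K := K) h (n := 4) (by norm_num)
    rw [map_intCast] at this
    exact_mod_cast this
  have heK : (e : K) = (79 * (D : K) ^ 3 + 1) / 4 := by
    have := congrArg (fun z : ℤ => (z : K)) he
    push_cast at this
    rw [this]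
    field_simp
  refine ⟨⟨Units.mk0 (6 : K) h6, -12 * (D : K), 0, 108⟩, ?_⟩
  ext
  · simp [variableChange_a₁, WK, Ew]
  · simp only [variableChange_a₂, WK, Ew, WeierstrassCurve.map_a₂, Units.val_inv_eq_inv_val,
      Units.val_mk0, map_intCast]
    push_cast
    field_simp
    ring
  · simp only [variableChange_a₃, WK, Ew, WeierstrassCurve.map_a₃, Units.val_inv_eq_inv_val,
      Units.val_mk0, map_one]
    field_simp
    ring
  · simp only [variableChange_a₄, WK, Ew, WeierstrassCurve.map_a₄, Units.val_inv_eq_inv_val,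
      Units.val_mk0, map_intCast]
    push_cast
    field_simp
    ring
  · simp only [variableChange_a₆, WK, Ew, WeierstrassCurve.map_a₆, Units.val_inv_eq_inv_val,
      Units.val_mk0, map_intCast]
    push_cast
    rw [heK]
    field_simp
    ring

omit [IsDomain R] [IsDiscreteValuationRing R] in
lemma Δ_good2 (D e : ℤ) (he : 79 * D ^ 3 + 1 = 4 * e) :
    (⟨0, ((-D : ℤ) : R), 1, ((-10 * D ^ 2 : ℤ) : R), ((-e : ℤ) : R)⟩ : WeierstrassCurve R).Δ =
      ((-161051 * D ^ 6 : ℤ) : R) := by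
  have he' : (4 : R) * (e : R) = 79 * (D : R) ^ 3 + 1 := by
    have := congrArg (fun z : ℤ => (z : R)) he
    push_cast at this
    rw [this]
  simp only [WeierstrassCurve.Δ, WeierstrassCurve.b₂, WeierstrassCurve.b₄, WeierstrassCurve.b₆,
    WeierstrassCurve.b₈]
  push_cast
  linear_combination (-16 * (D : R) ^ 3 - 27 * (4 * (e : R) + 79 * (D : R) ^ 3 - 1) - 720 * (D:R) ^ 3) * he'

/-- the number of points of the reduction at `2` -/
lemma count_good2 (h : Loc 2 R) (D e : ℤ) (hD : D % 2 = 1) :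
    (affCard ((⟨0, ((-D : ℤ) : R), 1, ((-10 * D ^ 2 : ℤ) : R), ((-e : ℤ) : R)⟩ :
      WeierstrassCurve R).map (IsLocalRing.residue R)) : ℤ) = if e % 2 = 0 then 4 else 0 := by
  obtain ⟨f⟩ := res_equiv h
  have h1 : (⟨0, ((-D : ℤ) : R), 1, ((-10 * D ^ 2 : ℤ) : R), ((-e : ℤ) : R)⟩ :
      WeierstrassCurve R).map (IsLocalRing.residue R) =
      (⟨0, 1, 1, 0, (e : ZMod 2)⟩ : WeierstrassCurve (ZMod 2)).map
        (f : ZMod 2 →+* IsLocalRing.ResidueField R) := by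
    have hD2 : ((-D : ℤ) : ZMod 2) = 1 := by
      have : ((-D : ℤ) : ZMod 2) = ((1 : ℤ) : ZMod 2) := by
        rw [ZMod.intCast_eq_intCast_iff]
        unfold Int.ModEq
        push_cast
        omega
      simpa using this
    have hE2 : ((-e : ℤ) : ZMod 2) = (e : ZMod 2) := by
      rw [ZMod.intCast_eq_intCast_iff]
      unfold Int.ModEq
      push_cast
      omega
    have h10 : ((-10 * D ^ 2 : ℤ) : ZMod 2) = 0 := by
      rw [ZMod.intCast_zmod_eq_zero_iff_dvd]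
      exact ⟨-5 * D ^ 2, by push_cast; ring⟩
    ext
    · simp
    · simp only [WeierstrassCurve.map_a₂, map_intCast]
      rw [← map_intCast (f : ZMod 2 →+* IsLocalRing.ResidueField R), hD2]
    · simp
    · simp only [WeierstrassCurve.map_a₄, map_intCast]
      rw [← map_intCast (f : ZMod 2 →+* IsLocalRing.ResidueField R), h10]
    · simp only [WeierstrassCurve.map_a₆, map_intCast]
      rw [← map_intCast (f : ZMod 2 →+* IsLocalRing.ResidueField R), hE2, map_intCast]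
  rw [h1, affCard_equiv]
  unfold affCard
  have h2 : ∀ c : ZMod 2, Nat.card {q : ZMod 2 × ZMod 2 // q.2 ^ 2 + 0 * q.1 * q.2 + 1 * q.2 =
      q.1 ^ 3 + 1 * q.1 ^ 2 + 0 * q.1 + c} = if c = 0 then 4 else 0 := by
    intro c
    rw [Nat.card_eq_fintype_card]
    revert c
    decide
  rw [h2]
  have h3 : ((e : ZMod 2) = 0) ↔ e % 2 = 0 := by
    rw [ZMod.intCast_zmod_eq_zero_iff_dvd]
    push_cast
    omega
  by_cases h4 : e % 2 = 0
  · rw [if_pos (h3.2 h4), if_pos h4]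
    rfl
  · rw [if_neg (fun h5 => h4 (h3.1 h5)), if_neg h4]
    rfl

/-! ### additive reduction -/

section add

variable {D : ℤ} {C : VariableChange K} {W₁ : WeierstrassCurve R}

omit [IsDomain R] [IsDiscreteValuationRing R] in
lemma rel_Δ (e : C • WK K D = W₁.map (algebraMap R K)) {a b : R}
    (hu : (C.u : K) * algebraMap R K b = algebraMap R K a) :
    -(2176782336 * 161051) * (D : R) ^ 6 * b ^ 12 = W₁.Δ * a ^ 12 := by
  have h1 := congrArg WeierstrassCurve.Δ e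
  rw [variableChange_Δ, WK_Δ, WeierstrassCurve.map_Δ] at h1
  apply IsFractionRing.injective R K
  simp only [map_mul, map_pow, map_neg, map_ofNat, map_intCast]
  rw [← h1, ← hu]
  have h2 : ((C.u⁻¹ : Kˣ) : K) * (C.u : K) = 1 := C.u.inv_mul
  calc -(2176782336 * 161051) * (D : K) ^ 6 * algebraMap R K b ^ 12
      = (((C.u⁻¹ : Kˣ) : K) * (C.u : K)) ^ 12 * (-(2176782336 * 161051) * (D : K) ^ 6) *
          algebraMap R K b ^ 12 := by
        rw [h2]; ring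
    _ = _ := by ring

omit [IsDomain R] [IsDiscreteValuationRing R] in
lemma rel_c₄ (e : C • WK K D = W₁.map (algebraMap R K)) {a b : R}
    (hu : (C.u : K) * algebraMap R K b = algebraMap R K a) :
    642816 * (D : R) ^ 2 * b ^ 4 = W₁.c₄ * a ^ 4 := by
  have h1 := congrArg WeierstrassCurve.c₄ e
  rw [variableChange_c₄, WK_c₄, WeierstrassCurve.map_c₄] at h1
  apply IsFractionRing.injective R K
  simp only [map_mul, map_pow, map_neg, map_ofNat, map_intCast]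
  rw [← h1, ← hu]
  have h2 : ((C.u⁻¹ : Kˣ) : K) * (C.u : K) = 1 := C.u.inv_mul
  calc 642816 * (D : K) ^ 2 * algebraMap R K b ^ 4
      = (((C.u⁻¹ : Kˣ) : K) * (C.u : K)) ^ 4 * (642816 * (D : K) ^ 2) *
          algebraMap R K b ^ 4 := by
        rw [h2]; ring
    _ = _ := by ring

omit [IsDomain R] [IsDiscreteValuationRing R] in
lemma rel_c₆ (e : C • WK K D = W₁.map (algebraMap R K)) {a b : R}
    (hu : (C.u : K) * algebraMap R K b = algebraMap R K a) :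
    933493248 * (D : R) ^ 3 * b ^ 6 = W₁.c₆ * a ^ 6 := by
  have h1 := congrArg WeierstrassCurve.c₆ e
  rw [variableChange_c₆, WK_c₆, WeierstrassCurve.map_c₆] at h1
  apply IsFractionRing.injective R K
  simp only [map_mul, map_pow, map_neg, map_ofNat, map_intCast]
  rw [← h1, ← hu]
  have h2 : ((C.u⁻¹ : Kˣ) : K) * (C.u : K) = 1 := C.u.inv_mul
  calc 933493248 * (D : K) ^ 3 * algebraMap R K b ^ 6
      = (((C.u⁻¹ : Kˣ) : K) * (C.u : K)) ^ 6 * (933493248 * (D : K) ^ 3) *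
          algebraMap R K b ^ 6 := by
        rw [h2]; ring
    _ = _ := by ring

/-- no model has unit discriminant (`D = 2^s d`, `s = 2` and `d = 3 mod 4`, or `s = 3`) -/
lemma not_unit_Δ2 (h : Loc 2 R) {s : ℕ} {d : ℤ} (hD : D = 2 ^ s * d) (hd : ¬ 2 ∣ d)
    (hs : s = 3 ∨ (s = 2 ∧ d % 4 = 3)) (e : C • WK K D = W₁.map (algebraMap R K)) :
    ¬ IsUnit W₁.Δ := by
  intro hΔ
  obtain ⟨a, b, ha, hb, hu⟩ := exists_frac (R := R) C
  have r1 := rel_Δ e hu
  have r4 := rel_c₄ e hu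
  have r6 := rel_c₆ e hu
  obtain ⟨i, u, rfl⟩ := fac h ha
  obtain ⟨j, v, rfl⟩ := fac h hb
  have hdu : IsUnit (d : R) := int_unit h (by exact_mod_cast hd)
  have hDR : (D : R) = 2 ^ s * (d : R) := by
    have := congrArg (fun z : ℤ => (z : R)) hD
    push_cast at this
    exact this
  have h2i : Irreducible (2 : R) := by exact_mod_cast h.unif
  have h2p : Prime (2 : R) := h2i.prime
  have h20 : (2 : R) ≠ 0 := h2p.ne_zero
  have hmm : ∀ {x : R}, ¬ IsUnit x ↔ (2 : R) ∣ x := fun {x} => by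
    have := mem_max h (x := x)
    exact_mod_cast this
  rw [hDR] at r1 r4 r6
  push_cast at r1 r4 r6
  have k1 : IsUnit ((-(531441 * 161051) : ℤ) : R) := int_unit h (by norm_num)
  have q1 : (((-(531441 * 161051) : ℤ) : R) * (d : R) ^ 6 * (v : R) ^ 12) *
      ((2 : ℕ) : R) ^ (12 + 6 * s + 12 * j) = (W₁.Δ * (u : R) ^ 12) * ((2 : ℕ) : R) ^ (12 * i) := by
    push_cast
    calc _ = -(2176782336 * 161051) * (2 ^ s * (d : R)) ^ 6 * ((v : R) * 2 ^ j) ^ 12 := by ring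
      _ = _ := r1
      _ = _ := by ring
  have q2 := (fac_unique h ((k1.mul (hdu.pow 6)).mul (v.isUnit.pow 12))
    (hΔ.mul (u.isUnit.pow 12)) q1).1
  obtain ⟨rfl, hd3⟩ : s = 2 ∧ d % 4 = 3 := by omega
  obtain rfl : i = j + 2 := by omega
  have h2j : ∀ n : ℕ, (2 : R) ^ n ≠ 0 := fun n => pow_ne_zero _ h20
  -- `c₄`
  have q4 : W₁.c₄ * (u : R) ^ 4 = 2 * (8 * 2511 * (d : R) ^ 2 * (v : R) ^ 4) := by
    apply mul_left_cancel₀ (h2j (4 * j + 8))
    calc _ = W₁.c₄ * ((u : R) * 2 ^ (j + 2)) ^ 4 := by ring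
      _ = _ := r4.symm
      _ = _ := by ring
  have q6 : W₁.c₆ * (u : R) ^ 6 = 8 * (729 * 2501 * (d : R) ^ 3 * (v : R) ^ 6) := by
    apply mul_left_cancel₀ (h2j (6 * j + 12))
    calc _ = W₁.c₆ * ((u : R) * 2 ^ (j + 2)) ^ 6 := by ring
      _ = _ := r6.symm
      _ = _ := by ring
  have hc4 : (2 : R) ∣ W₁.c₄ := by
    have : (2 : R) ∣ W₁.c₄ * (u : R) ^ 4 := ⟨_, q4⟩
    exact (IsUnit.dvd_mul_right (u.isUnit.pow 4)).1 this
  -- `a₁` is even
  have ha₁ : (2 : R) ∣ W₁.a₁ := by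
    apply h2p.dvd_of_dvd_pow (n := 4)
    obtain ⟨t, ht⟩ := hc4
    have e1 : W₁.a₁ ^ 4 = 2 * (t -(4 * W₁.a₁ ^ 2 * W₁.a₂ + 8 * W₁.a₂ ^ 2) +
        12 * (2 * W₁.a₄ + W₁.a₁ * W₁.a₃)) := by
      rw [WeierstrassCurve.c₄, WeierstrassCurve.b₂, WeierstrassCurve.b₄] at ht
      linear_combination ht
    exact ⟨_, e1⟩
  obtain ⟨α, hα⟩ := ha₁
  set β : R := α ^ 2 + W₁.a₂ with hβ
  set γ : R := W₁.a₄ + α * W₁.a₃ with hγ
  have hb₂ : W₁.b₂ = 4 * β := by rw [WeierstrassCurve.b₂, hα, hβ]; ring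
  have hb₄ : W₁.b₄ = 2 * γ := by rw [WeierstrassCurve.b₄, hα, hγ]; ring
  have hb₆ : W₁.b₆ = W₁.a₃ ^ 2 + 4 * W₁.a₆ := rfl
  set N : R := 27 * W₁.b₆ - 36 * (β * γ) + 8 * β ^ 3 with hN
  have hc₆ : W₁.c₆ = -8 * N := by
    rw [WeierstrassCurve.c₆, hb₂, hb₄, hN]
    ring
  have q7 : -N * (u : R) ^ 6 = 729 * 2501 * (d : R) ^ 3 * (v : R) ^ 6 := by
    have h8 : (8 : R) ≠ 0 := by
      have : (8 : R) = 2 ^ 3 := by norm_num
      rw [this]
      exact h2j 3
    apply mul_left_cancel₀ h8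
    rw [← q6, hc₆]
    ring
  have k2 : IsUnit ((1823229 : ℤ) : R) := int_unit h (by norm_num)
  have hNu : IsUnit N := by
    have h1 : IsUnit (-N * (u : R) ^ 6) := by
      have h3 := (k2.mul (hdu.pow 3)).mul (v.isUnit.pow 6)
      have h4 : -N * (u : R) ^ 6 = ((1823229 : ℤ) : R) * (d : R) ^ 3 * (v : R) ^ 6 := by
        rw [q7]
        push_cast
        ring
      rw [h4]
      exact h3
    have h2 := isUnit_of_mul_isUnit_left h1
    exact (IsUnit.neg_iff _).1 h2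
  have ha₃ : IsUnit W₁.a₃ := by
    by_contra h3
    rw [hmm] at h3
    obtain ⟨z, hz⟩ := h3
    apply (hmm (x := N)).2 _ hNu
    rw [hN, hb₆, hz]
    exact ⟨27 * (2 * z ^ 2 + 2 * W₁.a₆) - 18 * (β * γ) + 4 * β ^ 3, by ring⟩
  obtain ⟨t, ht⟩ := unit_sq h ha₃
  have hsix : ∀ {x : R}, IsUnit x → (4 : R) ∣ x ^ 6 - 1 := by
    intro x hx
    obtain ⟨t, ht⟩ := unit_sq h hx
    refine ⟨t * (x ^ 4 + x ^ 2 + 1), ?_⟩
    linear_combination (x ^ 4 + x ^ 2 + 1) * ht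
  obtain ⟨t₁, ht₁⟩ := hsix v.isUnit
  obtain ⟨t₂, ht₂⟩ := hsix u.isUnit
  have h9 : ((2 : ℕ) : R) ^ 2 ∣ ((27 + 729 * 2501 * d ^ 3 : ℤ) : R) := by
    refine ⟨-(27 * t + 27 * W₁.a₆ - 9 * (β * γ) + 2 * β ^ 3) - N * t₂ -
      729 * 2501 * (d : R) ^ 3 * t₁, ?_⟩
    have e1 : N = 27 + 4 * (27 * t + 27 * W₁.a₆ - 9 * (β * γ) + 2 * β ^ 3) := by
      rw [hN, hb₆]
      linear_combination 27 * ht
    push_cast
    linear_combination -q7 - N * ht₂ - 729 * 2501 * (d : R) ^ 3 * ht₁ - e1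
  have h10 := int_pow_dvd h 2 h9
  have h11 : d ^ 3 % 4 = 3 := by
    rw [pow_succ, pow_two, Int.mul_emod, Int.mul_emod d d, hd3]
    norm_num
  push_cast at h10
  omega

/-- no model has unit `c₄` -/
lemma not_unit_c₄2 (h : Loc 2 R) {s : ℕ} {d : ℤ} (hD : D = 2 ^ s * d) (hd : ¬ 2 ∣ d)
    (hs : s = 3 ∨ s = 2) (e : C • WK K D = W₁.map (algebraMap R K)) :
    ¬ IsUnit W₁.c₄ := by
  intro hc
  obtain ⟨a, b, ha, hb, hu⟩ := exists_frac (R := R) C
  have r1 := rel_Δ e hu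
  have r4 := rel_c₄ e hu
  obtain ⟨i, u, rfl⟩ := fac h ha
  obtain ⟨j, v, rfl⟩ := fac h hb
  have hdu : IsUnit (d : R) := int_unit h (by exact_mod_cast hd)
  have hDR : (D : R) = 2 ^ s * (d : R) := by
    have := congrArg (fun z : ℤ => (z : R)) hD
    push_cast at this
    exact this
  have h2i : Irreducible (2 : R) := by exact_mod_cast h.unif
  have h20 : (2 : R) ≠ 0 := h2i.prime.ne_zero
  rw [hDR] at r1 r4
  push_cast at r1 r4
  have k1 : IsUnit ((2511 : ℤ) : R) := int_unit h (by norm_num)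
  have q1 : (((2511 : ℤ) : R) * (d : R) ^ 2 * (v : R) ^ 4) *
      ((2 : ℕ) : R) ^ (8 + 2 * s + 4 * j) = (W₁.c₄ * (u : R) ^ 4) * ((2 : ℕ) : R) ^ (4 * i) := by
    push_cast
    calc _ = 642816 * (2 ^ s * (d : R)) ^ 2 * ((v : R) * 2 ^ j) ^ 4 := by ring
      _ = _ := r4
      _ = _ := by ring
  have q2 := (fac_unique h ((k1.mul (hdu.pow 2)).mul (v.isUnit.pow 4))
    (hc.mul (u.isUnit.pow 4)) q1).1
  obtain rfl : s = 2 := by omega
  obtain rfl : i = j + 3 := by omega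
  have k2 : IsUnit ((-(531441 * 161051) : ℤ) : R) := int_unit h (by norm_num)
  have q3 : (((-(531441 * 161051) : ℤ) : R) * (d : R) ^ 6 * (v : R) ^ 12) =
      2 * (2 ^ 11 * W₁.Δ * (u : R) ^ 12) := by
    apply mul_left_cancel₀ (pow_ne_zero (24 + 12 * j) h20)
    push_cast
    calc _ = -(2176782336 * 161051) * (2 ^ 2 * (d : R)) ^ 6 * ((v : R) * 2 ^ j) ^ 12 := by ring
      _ = _ := r1
      _ = _ := by ring
  have q4 : IsUnit ((((-(531441 * 161051) : ℤ) : R) * (d : R) ^ 6 * (v : R) ^ 12)) :=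
    (k2.mul (hdu.pow 6)).mul (v.isUnit.pow 12)
  rw [q3] at q4
  exact h2i.not_isUnit (isUnit_of_mul_isUnit_left q4)

end add

end local_ring

/-- the coefficients of Mathlib's `L`-function of the twist by `D` -/
noncomputable def X11 (D : ℤ) (n : ℕ) : ℤ := LA (-13392 * D ^ 2) (-1080432 * D ^ 3) n

lemma locP_eq (D : ℤ) (p : ℕ) (hp : p.Prime) :
    locP (-13392 * D ^ 2) (-1080432 * D ^ 3) p hp =
      (WK ((pl p hp).adicCompletion ℚ) D).localPolynomial
        ((pl p hp).adicCompletionIntegers ℚ) := by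
  unfold locP
  rw [Ec_map]
  rfl

/-- **`D` odd: good reduction at `2`**, with `a_2 = -2 (D/2)`. -/
theorem loc2_good {D : ℤ} (hD : D % 4 = 1) :
    GoodAt (X11 D) 2 ∧ X11 D 2 = -2 * (if D % 8 = 1 then 1 else -1) := by
  have hp : Nat.Prime 2 := Nat.prime_two
  have hL := M2.pfLoc 2 hp
  obtain ⟨-, -, -, e3⟩ := M2.pfEul (-13392 * D ^ 2) (-1080432 * D ^ 3)
  obtain ⟨-, -, -, f4⟩ := e3 2 hp
  obtain ⟨k, hk⟩ : ∃ k : ℤ, D = 4 * k + 1 := ⟨D / 4, by omega⟩
  set e : ℤ := 1264 * k ^ 3 + 948 * k ^ 2 + 237 * k + 20 with hedef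
  have he : 79 * D ^ 3 + 1 = 4 * e := by
    rw [hk, hedef]; ring
  obtain ⟨C, hC⟩ := model_good2 (K := (pl 2 hp).adicCompletion ℚ) hL D e he
  have hu : IsUnit (⟨0, ((-D : ℤ) : (pl 2 hp).adicCompletionIntegers ℚ), 1,
      ((-10 * D ^ 2 : ℤ) : (pl 2 hp).adicCompletionIntegers ℚ),
      ((-e : ℤ) : (pl 2 hp).adicCompletionIntegers ℚ)⟩ :
        WeierstrassCurve ((pl 2 hp).adicCompletionIntegers ℚ)).Δ := by
    rw [Δ_good2 D e he]
    apply int_unit hL
    intro h1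
    have hpp : Prime ((2 : ℕ) : ℤ) := Nat.prime_iff_prime_int.1 hp
    rcases hpp.dvd_or_dvd h1 with h2 | h2
    · norm_num at h2
    · have h3 := hpp.dvd_of_dvd_pow h2
      push_cast at h3
      omega
  have hpol := M1.pfLocGood 2 _ _ hL _ C _ hC hu
  rw [← locP_eq, count_good2 hL D e (by omega)] at hpol
  obtain ⟨t1, t2⟩ := f4 _ hpol
  refine ⟨t2, ?_⟩
  have e1 : e % 2 = 0 ↔ D % 8 = 1 := by
    have e2 : e % 2 = k % 2 := by
      rw [hedef]
      have : (1264 * k ^ 3 + 948 * k ^ 2 + 237 * k + 20) =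
        2 * (632 * k ^ 3 + 474 * k ^ 2 + 118 * k + 10) + k := by ring
      rw [this]
      omega
    rw [e2]
    omega
  have t1' : X11 D 2 = (2 : ℕ) - (if e % 2 = 0 then 4 else 0) := t1
  rw [t1']
  by_cases h8 : D % 8 = 1
  · rw [if_pos h8, if_pos (e1.2 h8)]
    norm_num
  · rw [if_neg h8, if_neg (fun h => h8 (e1.1 h))]
    norm_num

/-- **`D` even: additive reduction at `2`** -/
theorem loc2_add {D : ℤ} (hF : Fund1 D) (hD : 2 ∣ D) : TrivAt (X11 D) 2 := by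
  have hp : Nat.Prime 2 := Nat.prime_two
  have hL := M2.pfLoc 2 hp
  obtain ⟨-, -, -, e3⟩ := M2.pfEul (-13392 * D ^ 2) (-1080432 * D ^ 3)
  obtain ⟨f1, -, -, -⟩ := e3 2 hp
  -- `D = 2^s d`
  obtain ⟨s, d, hs, hDd, hd⟩ : ∃ (s : ℕ) (d : ℤ), (s = 3 ∨ (s = 2 ∧ d % 4 = 3)) ∧
      D = 2 ^ s * d ∧ ¬ 2 ∣ d := by
    rcases hF with rfl | ⟨-, ⟨h1, -⟩ | ⟨m, rfl, h1, h2⟩⟩
    · norm_num at hD
    · omega
    · rcases h1 with h1 | h1
      · obtain ⟨m', rfl⟩ : ∃ m' : ℤ, m = 2 * m' := ⟨m / 2, by omega⟩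
        exact ⟨3, m', Or.inl rfl, by ring, by omega⟩
      · exact ⟨2, m, Or.inr ⟨rfl, h1⟩, by ring, by omega⟩
  apply f1
  rw [locP_eq]
  refine M1.pfLocAdd 2 _ _ hL _ fun C W₁ e => ⟨not_unit_Δ2 hL hDd hd hs e,
    not_unit_c₄2 hL hDd hd (by tauto) e⟩

end Vale.Agent.P004H.H641
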