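import Vale.Agent.P004H.H641.Tw
import Vale.Agent.P004.H628.QW4

/-!
# P004H: parity of the analytic rank for the twists of `y² = x³ - 13392 d² x - 1080432 d³`
-/

namespace Vale.Agent.P004H.H641

open P004G P004G.ML Vale.Agent.P004H.H742
open scoped NumberTheorySymbols

/-- the root number of the twist of `X_0(11)` by `D` (or by a squarefree integer) -/
noncomputable def kap (D : ℤ) : ℤ := if (11 : ℤ) ∣ D then - D.sign else D.sign * J(D | 11)

lemma kap_Dm (m : ℤ) : kap (Dm m) = kap m := by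
  unfold Dm
  split_ifs with h
  · rfl
  · unfold kap
    have h1 : (11 : ℤ) ∣ 4 * m ↔ (11 : ℤ) ∣ m := by omega
    have h2 : (4 * m).sign = m.sign := by
      rw [Int.sign_mul, show Int.sign 4 = 1 from rfl, one_mul]
    have h3 : J(4 * m | 11) = J(m | 11) := by
      rw [jacobiSym.mul_left]
      have : J(4 | 11) = 1 := by
        have h4 : (4 : ℤ) = 2 ^ 2 := by norm_num
        rw [h4, jacobiSym.pow_left]
        exact jacobiSym.sq_one (by norm_num)
      rw [this, one_mul]
    simp only [h1, h2, h3]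

lemma kap_cases {D : ℤ} (hD : D ≠ 0) : kap D = 1 ∨ kap D = -1 := by
  have hs : D.sign = 1 ∨ D.sign = -1 := by
    rcases lt_trichotomy D 0 with h | h | h
    · right; exact Int.sign_eq_neg_one_of_neg h
    · exact absurd h hD
    · left; exact Int.sign_eq_one_of_pos h
  unfold kap
  split_ifs with h
  · rcases hs with h1 | h1 <;> rw [h1] <;> norm_num
  · have h2 : J(D | 11) = 1 ∨ J(D | 11) = -1 := by
      rcases jacobiSym.trichotomy D 11 with h3 | h3 | h3
      · exfalso
        have h4 := jacobiSym.eq_zero_iff_not_coprime.1 h3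
        apply h4
        have h5 : IsCoprime D 11 := by
          rw [isCoprime_comm]
          exact (Prime.coprime_iff_not_dvd (Int.prime_iff_natAbs_prime.2 (by norm_num))).2 h
        exact Int.isCoprime_iff_gcd_eq_one.1 h5
      · exact Or.inl h3
      · exact Or.inr h3
    rcases hs with h1 | h1 <;> rcases h2 with h3 | h3 <;> rw [h1, h3] <;> norm_num

/-- quadratic reciprocity for `n ≡ 1 mod 4` of either sign -/
lemma recip {n : ℤ} (h4 : n % 4 = 1) : J(n | 11) = J(11 | n.natAbs) := by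
  rcases le_total 0 n with h | h
  · obtain ⟨k, rfl⟩ := Int.eq_ofNat_of_zero_le h
    rw [Int.natAbs_natCast]
    exact jacobiSym.quadratic_reciprocity_one_mod_four (by omega) (by decide)
  · obtain ⟨k, rfl⟩ : ∃ k : ℕ, n = -(k : ℤ) := ⟨n.natAbs, by omega⟩
    rw [Int.natAbs_neg, Int.natAbs_natCast, jacobiSym.neg _ (by decide)]
    have hk : k % 4 = 3 := by omega
    have h1 : J((k : ℤ) | 11) = -J((11 : ℕ) | k) :=
      jacobiSym.quadratic_reciprocity_three_mod_four hk (by norm_num)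
    have h2 : ZMod.χ₄ ((11 : ℕ) : ZMod 4) = -1 := by decide
    rw [h1, h2]
    push_cast
    ring

open P004.QN in
/-- the sign of the twists is a twisted character -/
theorem twSign_kap {d : ℤ} (hd : d ≠ 0) :
    TwSign (fun m => kap (sqp (d * m))) (22 * d.natAbs) := by
  intro e he heP
  have he0 : e ≠ 0 := he.ne_zero
  obtain ⟨h1, t, h2, h3⟩ := sqp_spec (mul_ne_zero hd he0)
  set s := sqp (d * e) with hs
  -- the squarefree part for `e n`
  have hmain : ∀ n : ℤ, Squarefree n → n.natAbs.Coprime (22 * d.natAbs) →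
      sqp (d * (e * n)) = s * n ∧ ¬ (11 : ℤ) ∣ n := by
    intro n hn hc
    have hP : IsCoprime n (22 * d) := by
      rw [Int.isCoprime_iff_gcd_eq_one, Int.gcd_eq_natAbs, Int.natAbs_mul]
      exact hc
    have h11 : ¬ (11 : ℤ) ∣ n := by
      intro h11
      have h5 : (11 : ℤ) ∣ 22 * d := ⟨2 * d, by ring⟩
      have := hP.isUnit_of_dvd' h11 h5
      rw [Int.isUnit_iff] at this
      omega
    refine ⟨?_, h11⟩
    have hne : IsCoprime n e := by
      have h6 : e ∣ 22 * |d| := by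
        have : ((22 * d.natAbs : ℕ) : ℤ) = 22 * |d| := by
          push_cast
          rfl
        rw [this] at heP
        exact heP
      have h7 : e ∣ 22 * d := by
        rcases abs_choice d with h | h <;> rw [h] at h6
        · exact h6
        · rw [mul_neg, dvd_neg] at h6
          exact h6
      exact hP.of_isCoprime_of_dvd_right h7
    have hnd : IsCoprime n d := hP.of_isCoprime_of_dvd_right (Dvd.intro_left _ rfl)
    have hns : IsCoprime n s := by
      refine (hnd.mul_right hne).of_isCoprime_of_dvd_right ?_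
      exact ⟨t ^ 2, h2⟩
    have hsq : Squarefree (s * n) := by
      rw [squarefree_mul_iff]
      exact ⟨hns.symm.isRelPrime, h1, hn⟩
    have e1 : d * (e * n) = (s * n) * t ^ 2 := by
      linear_combination n * h2
    rw [e1]
    exact sqp_eq hsq h3
  have habs : ∀ x : ℤ, x ≠ 0 → |kap x| ≤ 1 := by
    intro x hx
    rcases kap_cases hx with h | h <;> rw [h] <;> norm_num
  by_cases h11 : (11 : ℤ) ∣ s
  · refine ⟨-s.sign, 1, ?_, one_ne_zero, fun n hn hn4 hnc => ?_⟩
    · rw [abs_neg]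
      rcases lt_trichotomy s 0 with h | h | h
      · rw [Int.sign_eq_neg_one_of_neg h]; norm_num
      · exact absurd h h1.ne_zero
      · rw [Int.sign_eq_one_of_pos h]; norm_num
    · obtain ⟨e1, -⟩ := hmain n hn hnc
      simp only
      rw [e1]
      unfold kap
      rw [if_pos (Dvd.dvd.mul_right h11 n), Int.sign_mul, Nat.cast_one, jacobiSym.one_left]
      ring
  · refine ⟨kap s, 11, habs s h1.ne_zero, by norm_num, fun n hn hn4 hnc => ?_⟩
    obtain ⟨e1, e2⟩ := hmain n hn hnc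
    simp only
    rw [e1]
    have h11' : ¬ (11 : ℤ) ∣ s * n := by
      intro h
      rcases (Int.prime_iff_natAbs_prime.2 (by norm_num : Nat.Prime (11 : ℤ).natAbs)).dvd_or_dvd h
        with h5 | h5
      · exact h11 h5
      · exact e2 h5
    unfold kap
    rw [if_neg h11, if_neg h11', Int.sign_mul, jacobiSym.mul_left, recip hn4]
    push_cast
    ring

/-- functional equations with explicit root numbers -/
structure BaseK : Prop where
  hasse : ∀ D : ℤ, Fund1 D → ∀ p : ℕ, p.Prime → (H742.LT D p) ^ 2 ≤ 4 * p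
  fe : ∀ D : ℤ, Fund1 D → ∃ N : ℝ, (D : ℝ) ^ 2 ≤ N ∧ N ≤ 11 * (D : ℝ) ^ 2 ∧
    FEt (-13392 * D ^ 2) (-1080432 * D ^ 3) N (kap D)

lemma BaseK.base (h : BaseK) : Base where
  hasse := h.hasse
  fe D hD := by
    obtain ⟨N, h1, h2, h3⟩ := h.fe D hD
    refine ⟨kap D, N, ?_, h1, h2, h3⟩
    rcases kap_cases (Fund1_ne hD) with h4 | h4 <;> rw [h4] <;> norm_num

lemma disc_ne {d : ℤ} (hd : d ≠ 0) :
    4 * (-13392 * d ^ 2) ^ 3 + 27 * (-1080432 * d ^ 3) ^ 2 ≠ 0 := by
  have h1 : 4 * (-13392 * d ^ 2) ^ 3 + 27 * (-1080432 * d ^ 3) ^ 2 =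
      21910810749696 * d ^ 6 := by ring
  rw [h1]
  exact mul_ne_zero (by norm_num) (pow_ne_zero 6 hd)

lemma sqp_mul_sq {n u : ℤ} (hn : n ≠ 0) (hu : u ≠ 0) : sqp (n * u ^ 2) = sqp n := by
  obtain ⟨h1, s, h2, h3⟩ := sqp_spec hn
  have e1 : n * u ^ 2 = sqp n * (s * u) ^ 2 := by
    linear_combination u ^ 2 * h2
  rw [e1]
  exact sqp_eq h1 (mul_ne_zero h3 hu)

open P004.QN in
/-- **one half of the twists of `y² = x³ - 13392 d² x - 1080432 d³` has odd analytic rank** -/
theorem oddHalf_all (hG : StMLG) (hEnt : StLent) (hPar : StLparity) (h : BaseK) {d : ℤ}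
    (hd : d ≠ 0) : OddHalf (-13392 * d ^ 2) (-1080432 * d ^ 3) := by
  refine oddHalf_of (κ := fun m => kap (sqp (d * m))) (P := 22 * d.natAbs)
    ⟨11 * d.natAbs, by ring⟩ (Nat.mul_ne_zero (by norm_num) (Int.natAbs_ne_zero.2 hd))
    (twSign_kap hd) ?_
  intro D hD
  have hF : Fund1 D := Or.inr hD
  have hD0 : D ≠ 0 := Fund1_ne hF
  have hn : d * D ≠ 0 := mul_ne_zero hd hD0
  have hs : sqp (d * sfk D) = sqp (d * D) := by
    unfold sfk
    split_ifs with h4
    · obtain ⟨k, hk⟩ : ∃ k, D = 4 * k := ⟨D / 4, by omega⟩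
      have hk0 : k ≠ 0 := by rintro rfl; exact hD0 (by rw [hk]; ring)
      have e1 : D / 4 = k := by omega
      rw [e1]
      have e2 : d * D = d * k * 2 ^ 2 := by rw [hk]; ring
      rw [e2, sqp_mul_sq (mul_ne_zero hd hk0) (by norm_num)]
    · rfl
  have hF' : Fund1 (Dm (sqp (d * D))) := fund1_Dm (sqp_spec hn).1
  obtain ⟨N, hN1, hN2, hFE⟩ := h.fe _ hF'
  have hD'0 : (((Dm (sqp (d * D)) : ℤ) : ℝ)) ≠ 0 := by exact_mod_cast Fund1_ne hF'
  have hN0 : 0 < N := lt_of_lt_of_le (by positivity) hN1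
  have hk : (((kap (Dm (sqp (d * D))) : ℤ) : ℝ) = 1 ∨
      ((kap (Dm (sqp (d * D))) : ℤ) : ℝ) = -1) := by
    rcases kap_cases (Fund1_ne hF') with h4 | h4 <;> rw [h4] <;> norm_num
  have hLD := ld_of (disc_ne hd) hG (modl_all h.base hd) D hF
  have e2 : LA (-13392 * d ^ 2 * D ^ 2) (-1080432 * d ^ 3 * D ^ 3) =
      LA (-13392 * (Dm (sqp (d * D))) ^ 2) (-1080432 * (Dm (sqp (d * D))) ^ 3) := by
    rw [(arg_eq d D).1, (arg_eq d D).2]
    exact funext fun n => LT_sqp hn n
  have hfe := feq_of hN0 hk hFE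
  rw [← e2] at hfe
  have hr := rank_parity hEnt hPar (a := -13392 * d ^ 2) (b := -1080432 * d ^ 3) (D := D)
    (A := LA (-13392 * d ^ 2 * D ^ 2) (-1080432 * d ^ 3 * D ^ 3)) (fun n => rfl) hLD hfe
  rw [kap_Dm] at hr
  simp only [hs]
  rcases kap_cases (sqp_spec hn).1.ne_zero with h4 | h4
  · rw [h4] at hr ⊢
    have hev := hr.1 (by norm_num)
    exact ⟨fun ho => absurd ho (Nat.not_odd_iff_even.2 hev), fun _ => rfl⟩
  · rw [h4] at hr ⊢
    refine ⟨fun _ => rfl, fun he => ?_⟩
    have := hr.2 he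
    norm_num at this

/-- **everything from the base curve** -/
theorem main_all (hG : StMLG) (hEnt : StLent) (hPar : StLparity) (h : BaseK) {d : ℤ}
    (hd : d ≠ 0) : 4 * (-13392 * d ^ 2) ^ 3 + 27 * (-1080432 * d ^ 3) ^ 2 ≠ 0 ∧
      Modl (-13392 * d ^ 2) (-1080432 * d ^ 3) ∧ OddHalf (-13392 * d ^ 2) (-1080432 * d ^ 3) :=
  ⟨disc_ne hd, modl_all h.base hd, oddHalf_all hG hEnt hPar h hd⟩

end Vale.Agent.P004H.H641
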