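import Vale.Agent.P004H.H641.Base

/-!
# P004H: all curves `y² = x³ + a x + b` with the `j`-invariant of `X_0(11)`
-/

namespace Vale.Agent.P004H.H641

open P004G P004G.ML Filter Topology
open P004 (IsFund Fam)

/-- the twists of `(a, b)` and of `(a', b')` have the same `L`-functions -/
def SameL (a b a' b' : ℤ) : Prop := ∀ D : ℤ, D ≠ 0 → ∀ n : ℕ,
  LA (a * D ^ 2) (b * D ^ 3) n = LA (a' * D ^ 2) (b' * D ^ 3) n

lemma SameL.trans {a b a' b' a'' b'' : ℤ} (h : SameL a b a' b') (h' : SameL a' b' a'' b'') :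
    SameL a b a'' b'' := fun D hD n => (h D hD n).trans (h' D hD n)

lemma SameL.modl {a b a' b' : ℤ} (h : SameL a b a' b') (hM : Modl a' b') : Modl a b where
  hasse D hD p hp := by
    rw [h D (Fund1_ne hD) p]
    exact hM.hasse D hD p hp
  fe := by
    obtain ⟨C, hC, hf⟩ := hM.fe
    refine ⟨C, hC, fun D hD => ?_⟩
    obtain ⟨N, κ, h1, h2, h3, h4, h5⟩ := hf D hD
    refine ⟨N, κ, h1, h2, h3, h4, ?_⟩
    unfold FEt at h5 ⊢
    simp only [h D (Fund1_ne hD)]
    exact h5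

lemma SameL.isLT {a b a' b' : ℤ} (h : SameL a b a' b') {D : ℤ} (hD : D ≠ 0) :
    IsLT a b D = IsLT a' b' D := by
  funext L
  have e : (fun n => ((Ec (a * D ^ 2) (b * D ^ 3)).LFunction n : ℂ)) =
      (fun n => ((Ec (a' * D ^ 2) (b' * D ^ 3)).LFunction n : ℂ)) := by
    funext n
    have := h D hD n
    unfold LA at this
    rw [this]
  unfold IsLT
  rw [e]

lemma SameL.aRk {a b a' b' : ℤ} (h : SameL a b a' b') {D : ℤ} (hD : D ≠ 0) :
    aRk a b D = aRk a' b' D := by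
  unfold P004G.aRk
  rw [h.isLT hD]

lemma SameL.oddHalf {a b a' b' : ℤ} (h : SameL a b a' b') (hM : OddHalf a' b') :
    OddHalf a b := by
  classical
  unfold OddHalf at hM ⊢
  have key : ∀ X : ℕ, (Fam X).filter (fun D => Odd (P004G.aRk a b D)) =
      (Fam X).filter (fun D => Odd (P004G.aRk a' b' D)) := by
    intro X
    refine Finset.filter_congr fun D hD => ?_
    have hf : IsFund D := by
      unfold Fam at hD
      exact (Finset.mem_filter.1 hD).2
    rw [h.aRk (Fund1_ne (Or.inr hf))]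
  have e : (fun X : ℕ => (((Fam X).filter (fun D => Odd (P004G.aRk a b D))).card : ℝ) /
      (Fam X).card) = (fun X : ℕ =>
      (((Fam X).filter (fun D => Odd (P004G.aRk a' b' D))).card : ℝ) / (Fam X).card) := by
    funext X
    rw [key X]
  convert hM using 1

/-- curves with the same `j`-invariant `≠ 0, 1728` -/
theorem sameL_j {a b A B : ℤ} (hd : 4 * a ^ 3 + 27 * b ^ 2 ≠ 0) (ha : a ≠ 0) (hb : b ≠ 0)
    (hA : A ≠ 0) (hB : B ≠ 0) (hj : a ^ 3 * B ^ 2 = A ^ 3 * b ^ 2) :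
    ∃ e : ℤ, e ≠ 0 ∧ SameL a b (A * e ^ 2) (B * e ^ 3) := by
  refine ⟨(b * A) * (B * a), by positivity, fun D hD n => ?_⟩
  have hs : B * a ≠ 0 := mul_ne_zero hB ha
  have h1 : 4 * (a * D ^ 2) ^ 3 + 27 * (b * D ^ 3) ^ 2 ≠ 0 := by
    have e1 : 4 * (a * D ^ 2) ^ 3 + 27 * (b * D ^ 3) ^ 2 = (4 * a ^ 3 + 27 * b ^ 2) * D ^ 6 := by
      ring
    rw [e1]
    exact mul_ne_zero hd (pow_ne_zero 6 hD)
  rw [← LA_scale h1 hs n]
  congr 1
  · linear_combination (a ^ 2 * B ^ 2 * D ^ 2) * hj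
  · linear_combination (b * B ^ 4 * a ^ 3 * D ^ 3) * hj

/-- the condition `j(E) = -122023936/161051` for `E : y² = x³ + a x + b` -/
def J11 (a b : ℤ) : Prop := 161051 * (6912 * a ^ 3) = -122023936 * (4 * a ^ 3 + 27 * b ^ 2)

/-- every integral short model with this `j`-invariant -/
theorem sameL_J11 {a b : ℤ} (hd : 4 * a ^ 3 + 27 * b ^ 2 ≠ 0) (hj : J11 a b) :
    ∃ e : ℤ, e ≠ 0 ∧ SameL a b (-13392 * e ^ 2) (-1080432 * e ^ 3) := by
  unfold J11 at hj
  have h0 : 1601280256 * a ^ 3 = -3294646272 * b ^ 2 := by linear_combination hj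
  have ha : a ≠ 0 := by
    rintro rfl
    have hb2 : b ^ 2 = 0 := by omega
    apply hd
    rw [hb2]
    norm_num
  have hb : b ≠ 0 := by
    rintro rfl
    have ha3 : a ^ 3 = 0 := by omega
    apply hd
    rw [ha3]
    norm_num
  exact sameL_j hd ha hb (by norm_num) (by norm_num) (by linear_combination 729 * h0)

/-- **part (a) for every curve with the `j`-invariant of `X_0(11)`** -/
theorem main_J11 (hG : StMLG) (hEnt : StLent) (hPar : StLparity) (h : BaseK) {a b : ℤ}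
    (hd : 4 * a ^ 3 + 27 * b ^ 2 ≠ 0) (hj : J11 a b) : Modl a b ∧ OddHalf a b := by
  obtain ⟨e, he, hS⟩ := sameL_J11 hd hj
  obtain ⟨-, h2, h3⟩ := main_all hG hEnt hPar h he
  exact ⟨hS.modl h2, hS.oddHalf h3⟩

end Vale.Agent.P004H.H641
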