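import Vale.Agent.P004H.H641.Iso
import Vale.Agent.P004H.H742.L7
import Vale.Agent.P004G.H503.Fin2

/-!
# P004H: the twists of `E_d : y² = x³ - 13392 d² x - 1080432 d³`, `d ≠ 0`
-/

namespace Vale.Agent.P004H.H641

open P004G P004G.ML Vale.Agent.P004H.H742

/-- the squarefree part: `n = sqp n * s²` -/
lemma exists_sqp (n : ℤ) (hn : n ≠ 0) : ∃ m s : ℤ, Squarefree m ∧ n = m * s ^ 2 ∧ s ≠ 0 := by
  obtain ⟨a, b, hab, ha⟩ := Nat.sq_mul_squarefree n.natAbs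
  have hn' : n.natAbs ≠ 0 := Int.natAbs_ne_zero.2 hn
  have hb : b ≠ 0 := by
    rintro rfl
    rw [zero_pow (by norm_num), zero_mul] at hab
    exact hn' hab.symm
  refine ⟨n.sign * a, b, ?_, ?_, by exact_mod_cast hb⟩
  · rw [← Int.squarefree_natAbs, Int.natAbs_mul, Int.natAbs_sign_of_ne_zero hn, one_mul,
      Int.natAbs_natCast]
    exact ha
  · conv_lhs => rw [← Int.sign_mul_natAbs n, ← hab]
    push_cast
    ring

/-- the squarefree part of `n` (`1` for `n = 0`) -/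
noncomputable def sqp (n : ℤ) : ℤ := if h : n ≠ 0 then (exists_sqp n h).choose else 1

lemma sqp_spec {n : ℤ} (hn : n ≠ 0) : Squarefree (sqp n) ∧ ∃ s : ℤ, n = sqp n * s ^ 2 ∧ s ≠ 0 := by
  unfold sqp
  rw [dif_pos hn]
  obtain ⟨s, h1, h2, h3⟩ := (exists_sqp n hn).choose_spec
  exact ⟨h1, s, h2, h3⟩

/-- uniqueness of the squarefree part -/
lemma sqf_unique {m m' s s' : ℤ} (hm : Squarefree m) (hm' : Squarefree m') (hs : s ≠ 0)
    (hs' : s' ≠ 0) (h : m * s ^ 2 = m' * s' ^ 2) : m = m' := by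
  have key : ∀ {m m' s s' : ℤ}, Squarefree m → s ≠ 0 → s' ≠ 0 → m * s ^ 2 = m' * s' ^ 2 →
      m ∣ m' := by
    intro m m' s s' hm hs hs' h
    -- remove the common part of `s`, `s'`
    obtain ⟨g, t, t', hg, hc, h1, h2⟩ : ∃ g t t' : ℤ, g ≠ 0 ∧ IsCoprime t t' ∧ s = g * t ∧
        s' = g * t' := by
      have hg : 0 < Int.gcd s s' := Int.gcd_pos_of_ne_zero_left _ hs
      refine ⟨Int.gcd s s', s / Int.gcd s s', s' / Int.gcd s s', by positivity, ?_, ?_, ?_⟩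
      · rw [Int.isCoprime_iff_gcd_eq_one]
        exact Int.gcd_div_gcd_div_gcd hg
      · rw [Int.mul_ediv_cancel' (Int.gcd_dvd_left s s')]
      · rw [Int.mul_ediv_cancel' (Int.gcd_dvd_right s s')]
    rw [h1, h2] at h
    have h3 : m * t ^ 2 = m' * t' ^ 2 := by
      apply mul_left_cancel₀ (pow_ne_zero 2 hg)
      linear_combination h
    -- `t'^2 ∣ m`, hence `t'` is a unit
    have h4 : t' ^ 2 ∣ m := by
      have h5 : t' ^ 2 ∣ m * t ^ 2 := ⟨m', by rw [h3]; ring⟩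
      exact (hc.symm.pow (m := 2) (n := 2)).dvd_of_dvd_mul_right h5
    have h6 : IsUnit t' := hm t' (by rwa [← pow_two])
    have h7 : t' ^ 2 = 1 := by
      rcases Int.isUnit_iff.1 h6 with h | h <;> rw [h] <;> norm_num
    rw [h7, mul_one] at h3
    exact ⟨t ^ 2, h3.symm⟩
  have h1 := key hm hs hs' h
  have h2 := key hm' hs' hs h.symm
  have h3 := Int.natAbs_eq_of_dvd_dvd h1 h2
  have hs2 : 0 < s ^ 2 := by positivity
  have hs2' : 0 < s' ^ 2 := by positivity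
  rcases Int.natAbs_eq_natAbs_iff.1 h3 with h4 | h4
  · exact h4
  · exfalso
    rw [h4] at h
    have hm0 : m' ≠ 0 := hm'.ne_zero
    have h5 : m' * (s ^ 2 + s' ^ 2) = 0 := by linear_combination -h
    rcases mul_eq_zero.1 h5 with h6 | h6
    · exact hm0 h6
    · omega

lemma sqp_eq {m s : ℤ} (hm : Squarefree m) (hs : s ≠ 0) : sqp (m * s ^ 2) = m := by
  have hn : m * s ^ 2 ≠ 0 := mul_ne_zero hm.ne_zero (pow_ne_zero 2 hs)
  obtain ⟨h1, t, h2, h3⟩ := sqp_spec hn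
  exact (sqf_unique hm h1 hs h3 h2).symm

/-- `D² s⁴`: the twists by `m s²` and by `m` have the same `L`-function -/
lemma LT_sq {m s : ℤ} (hm : m ≠ 0) (hs : s ≠ 0) (n : ℕ) :
    H742.LT (m * s ^ 2) n = H742.LT m n := by
  unfold H742.LT
  rw [← LA_scale (a := -13392 * m ^ 2) (b := -1080432 * m ^ 3) (u := s) ?_ hs n]
  · congr 1 <;> ring
  · have h1 : 4 * (-13392 * m ^ 2) ^ 3 + 27 * (-1080432 * m ^ 3) ^ 2 =
        21910810749696 * m ^ 6 := by ring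
    rw [h1]
    exact mul_ne_zero (by norm_num) (pow_ne_zero 6 hm)

/-- the twist by `n` and by the discriminant of `ℚ(√n)` -/
lemma LT_Dm {m : ℤ} (hm : m ≠ 0) (n : ℕ) : H742.LT (Dm m) n = H742.LT m n := by
  unfold Dm
  split_ifs
  · rfl
  · rw [show 4 * m = m * 2 ^ 2 by ring, LT_sq hm (by norm_num)]

lemma LT_sqp {n : ℤ} (hn : n ≠ 0) (k : ℕ) : H742.LT n k = H742.LT (Dm (sqp n)) k := by
  obtain ⟨h1, s, h2, h3⟩ := sqp_spec hn
  rw [LT_Dm h1.ne_zero]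
  conv_lhs => rw [h2]
  exact LT_sq h1.ne_zero h3 k

/-! ### the size of the squarefree part of `d D` -/

/-- if `s² ∣ x m` with `m` squarefree then `s ∣ x` -/
lemma dvd_of_sq_dvd {s x m : ℤ} (hs : s ≠ 0) (hm : Squarefree m) (h : s ^ 2 ∣ x * m) : s ∣ x := by
  obtain ⟨g, s', m', hg, hc, h1, h2⟩ : ∃ g s' m' : ℤ, g ≠ 0 ∧ IsCoprime s' m' ∧ s = g * s' ∧
      m = g * m' := by
    have hg : 0 < Int.gcd s m := Int.gcd_pos_of_ne_zero_left _ hs
    refine ⟨Int.gcd s m, s / Int.gcd s m, m / Int.gcd s m, by positivity, ?_, ?_, ?_⟩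
    · rw [Int.isCoprime_iff_gcd_eq_one]
      exact Int.gcd_div_gcd_div_gcd hg
    · rw [Int.mul_ediv_cancel' (Int.gcd_dvd_left s m)]
    · rw [Int.mul_ediv_cancel' (Int.gcd_dvd_right s m)]
  have hgm : IsCoprime g m' := by
    have h3 : IsRelPrime g m' := by
      rw [h2] at hm
      intro e he1 he2
      exact hm e (mul_dvd_mul he1 he2)
    exact h3.isCoprime
  obtain ⟨t, ht⟩ := h
  have h4 : x * m' = g * (s' ^ 2 * t) := by
    apply mul_left_cancel₀ hg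
    rw [h1, h2] at ht
    linear_combination ht
  obtain ⟨y, hy⟩ : g ∣ x := hgm.dvd_of_dvd_mul_right ⟨_, h4⟩
  have h5 : y * m' = s' ^ 2 * t := by
    apply mul_left_cancel₀ hg
    linear_combination h4 - m' * hy
  have h6 : s' ∣ y := by
    exact hc.dvd_of_dvd_mul_right ⟨s' * t, by rw [h5]; ring⟩
  rw [h1, hy]
  exact mul_dvd_mul_left g h6

/-- `|D| / (16 |d|) ≤ |sqp (d D)| ≤ |d D|` for a fundamental discriminant `D` (or `D = 1`) -/
lemma sqp_size {d D : ℤ} (hd : d ≠ 0) (hD : Fund1 D) :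
    |D| ≤ 16 * |d| * |sqp (d * D)| ∧ |sqp (d * D)| ≤ |d| * |D| := by
  obtain ⟨c, m, hm, hDm, hc⟩ : ∃ c m : ℤ, Squarefree m ∧ D = c * m ∧ (c = 1 ∨ c = 4) := by
    rcases hD with rfl | ⟨-, ⟨-, h⟩ | ⟨m, rfl, -, h⟩⟩
    · exact ⟨1, 1, squarefree_one, by norm_num, Or.inl rfl⟩
    · exact ⟨1, D, h, by ring, Or.inl rfl⟩
    · exact ⟨4, m, h, by ring, Or.inr rfl⟩
  have hc0 : c ≠ 0 := by omega
  have hD0 : D ≠ 0 := by rw [hDm]; exact mul_ne_zero hc0 hm.ne_zero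
  obtain ⟨h1, s, h2, h3⟩ := sqp_spec (mul_ne_zero hd hD0)
  have h4 : s ∣ d * c := by
    apply dvd_of_sq_dvd h3 hm
    refine ⟨sqp (d * D), ?_⟩
    rw [hDm] at h2 ⊢
    linear_combination h2
  have h5 : |s| ≤ |d * c| := by
    exact Int.le_of_dvd (abs_pos.2 (mul_ne_zero hd hc0)) ((abs_dvd_abs s (d * c)).2 h4)
  have h6 : |c| ≤ 4 := by rcases hc with rfl | rfl <;> norm_num
  have h7 : |s| ^ 2 ≤ 16 * |d| ^ 2 := by
    rw [abs_mul] at h5
    have h8 : |s| ≤ 4 * |d| := by nlinarith [abs_nonneg d]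
    nlinarith [abs_nonneg s, abs_nonneg d]
  have h8 : |d| * |D| = |sqp (d * D)| * |s| ^ 2 := by
    rw [← abs_mul, ← abs_pow, ← abs_mul, ← h2]
  have hs1 : 1 ≤ |s| ^ 2 := by
    have : 0 < |s| := abs_pos.2 h3
    nlinarith
  have hd1 : 0 < |d| := abs_pos.2 hd
  have hq : 0 ≤ |sqp (d * D)| := abs_nonneg _
  constructor
  · have h9 : |d| * |D| ≤ |sqp (d * D)| * (16 * |d| ^ 2) := by
      rw [h8]
      exact mul_le_mul_of_nonneg_left h7 hq
    have h10 : |d| * |D| ≤ |d| * (16 * |d| * |sqp (d * D)|) := by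
      calc _ ≤ _ := h9
        _ = _ := by ring
    exact le_of_mul_le_mul_left h10 hd1
  · rw [h8]
    nlinarith

/-! ### `Modl` for all `d` -/

/-- Hasse's bound and functional equations for the `L`-functions of all `y² = x³ - 13392 D² x -
1080432 D³`, `D = 1` or fundamental -/
structure Base : Prop where
  hasse : ∀ D : ℤ, Fund1 D → ∀ p : ℕ, p.Prime → (H742.LT D p) ^ 2 ≤ 4 * p
  fe : ∀ D : ℤ, Fund1 D → ∃ κ N : ℝ, (κ = 1 ∨ κ = -1) ∧ (D : ℝ) ^ 2 ≤ N ∧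
    N ≤ 11 * (D : ℝ) ^ 2 ∧ FEt (-13392 * D ^ 2) (-1080432 * D ^ 3) N κ

lemma abs_Dm_int (m : ℤ) : |m| ≤ |Dm m| ∧ |Dm m| ≤ 4 * |m| := by
  unfold Dm
  split_ifs
  · exact ⟨le_rfl, by nlinarith [abs_nonneg m]⟩
  · rw [abs_mul]
    norm_num
    nlinarith [abs_nonneg m]

lemma Fund1_ne {D : ℤ} (hD : Fund1 D) : D ≠ 0 := by
  rcases hD with rfl | ⟨-, ⟨-, h⟩ | ⟨m, rfl, -, h⟩⟩
  · norm_num
  · exact h.ne_zero
  · exact mul_ne_zero (by norm_num) h.ne_zero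

lemma arg_eq (d D : ℤ) : -13392 * d ^ 2 * D ^ 2 = -13392 * (d * D) ^ 2 ∧
    -1080432 * d ^ 3 * D ^ 3 = -1080432 * (d * D) ^ 3 := ⟨by ring, by ring⟩

/-- **`Modl` for all curves `y² = x³ - 13392 d² x - 1080432 d³`** -/
theorem modl_all (h : Base) {d : ℤ} (hd : d ≠ 0) :
    Modl (-13392 * d ^ 2) (-1080432 * d ^ 3) where
  hasse D hD p hp := by
    rw [(arg_eq d D).1, (arg_eq d D).2]
    have hn : d * D ≠ 0 := mul_ne_zero hd (Fund1_ne hD)
    have h1 := LT_sqp hn p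
    unfold H742.LT at h1
    rw [h1]
    exact h.hasse _ (fund1_Dm (sqp_spec hn).1) p hp
  fe := by
    refine ⟨(64 * |(d : ℝ)|) ^ 2 * 11, ?_, fun D hD => ?_⟩
    · have h1 : (1 : ℝ) ≤ |(d : ℝ)| := by
        have : 1 ≤ |d| := Int.one_le_abs hd
        exact_mod_cast this
      nlinarith
    · have hn : d * D ≠ 0 := mul_ne_zero hd (Fund1_ne hD)
      set D' := Dm (sqp (d * D)) with hD'
      have hF : Fund1 D' := fund1_Dm (sqp_spec hn).1
      obtain ⟨κ, N, hκ, hN1, hN2, hFE⟩ := h.fe D' hF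
      have hD0 : (D' : ℝ) ≠ 0 := by exact_mod_cast Fund1_ne hF
      have hN0 : 0 < N := lt_of_lt_of_le (by positivity) hN1
      obtain ⟨s1, s2⟩ := sqp_size hd hD
      obtain ⟨t1, t2⟩ := abs_Dm_int (sqp (d * D))
      have u1 : |(D : ℝ)| ≤ 16 * |(d : ℝ)| * |(D' : ℝ)| := by
        have : |D| ≤ 16 * |d| * |D'| := s1.trans (mul_le_mul_of_nonneg_left t1 (by positivity))
        exact_mod_cast this
      have u2 : |(D' : ℝ)| ≤ 4 * (|(d : ℝ)| * |(D : ℝ)|) := by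
        have : |D'| ≤ 4 * (|d| * |D|) := t2.trans (mul_le_mul_of_nonneg_left s2 (by norm_num))
        exact_mod_cast this
      have v1 : (D : ℝ) ^ 2 ≤ (16 * |(d : ℝ)|) ^ 2 * (D' : ℝ) ^ 2 := by
        rw [← sq_abs (D : ℝ), ← sq_abs (D' : ℝ), ← mul_pow]
        exact pow_le_pow_left₀ (abs_nonneg _) u1 2
      have v2 : (D' : ℝ) ^ 2 ≤ (4 * |(d : ℝ)|) ^ 2 * (D : ℝ) ^ 2 := by
        rw [← sq_abs (D : ℝ), ← sq_abs (D' : ℝ), ← mul_pow]
        refine pow_le_pow_left₀ (abs_nonneg _) (u2.trans (le_of_eq (by ring))) 2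
      have hd0 : 0 < |(d : ℝ)| := by
        rw [abs_pos]; exact_mod_cast hd
      refine ⟨N, κ, hN0, hκ, ?_, ?_, ?_⟩
      · rw [div_le_iff₀ (by positivity)]
        have w1 : (16 * |(d : ℝ)|) ^ 2 * (D' : ℝ) ^ 2 ≤ (16 * |(d : ℝ)|) ^ 2 * N :=
          mul_le_mul_of_nonneg_left hN1 (by positivity)
        have w2 : 0 ≤ |(d : ℝ)| ^ 2 * N := by positivity
        nlinarith
      · have w1 : 11 * (D' : ℝ) ^ 2 ≤ 11 * ((4 * |(d : ℝ)|) ^ 2 * (D : ℝ) ^ 2) :=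
          mul_le_mul_of_nonneg_left v2 (by norm_num)
        have w2 : 0 ≤ |(d : ℝ)| ^ 2 * (D : ℝ) ^ 2 := by positivity
        nlinarith
      · intro y hy
        have e1 := hFE y hy
        rw [(arg_eq d D).1, (arg_eq d D).2]
        have e2 : ∀ n : ℕ, LA (-13392 * (d * D) ^ 2) (-1080432 * (d * D) ^ 3) n =
            LA (-13392 * D' ^ 2) (-1080432 * D' ^ 3) n := fun n => LT_sqp hn n
        simp only [e2]
        exact e1

end Vale.Agent.P004H.H641
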